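import Vale.Agent.P205.Final

open scoped Manifold ContDiff

noncomputable section

namespace Vale.Agent.Results.P205.A_full

/-- The value `B(v, w)` of a continuous bilinear form. -/
def bilinApply {W : Type*} [AddCommGroup W] [Module ℝ W] [TopologicalSpace W]
    (B : W →L[ℝ] W →L[ℝ] ℝ) (v w : W) : ℝ := B v w

/-- Smooth Riemannian metrics on the tangent bundle of `M`. -/
abbrev SmoothMetric (E : Type) [NormedAddCommGroup E] [NormedSpace ℝ E]
    (M : Type*) [TopologicalSpace M] [ChartedSpace E M] [IsManifold 𝓘(ℝ, E) ∞ M] :=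
  Bundle.ContMDiffRiemannianMetric 𝓘(ℝ, E) ∞ E (fun p : M => TangentSpace 𝓘(ℝ, E) p)

/-- The differential `dF_p(v)` of a map to a normed space. -/
def differential {E : Type} [NormedAddCommGroup E] [NormedSpace ℝ E]
    {M : Type*} [TopologicalSpace M] [ChartedSpace E M]
    {V : Type} [NormedAddCommGroup V] [NormedSpace ℝ V]
    (F : M → V) (p : M) (v : TangentSpace 𝓘(ℝ, E) p) : V :=
  mfderiv 𝓘(ℝ, E) 𝓘(ℝ, V) F p v

/-- `F` is smooth and pulls the inner product of `V` back to `g`. -/
def IsIsometricImmersion {E : Type} [NormedAddCommGroup E] [NormedSpace ℝ E]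
    {M : Type*} [TopologicalSpace M] [ChartedSpace E M] [IsManifold 𝓘(ℝ, E) ∞ M]
    {V : Type} [NormedAddCommGroup V] [InnerProductSpace ℝ V]
    (g : SmoothMetric E M) (F : M → V) : Prop :=
  ContMDiff 𝓘(ℝ, E) 𝓘(ℝ, V) ∞ F ∧ ∀ (p : M) (v w : TangentSpace 𝓘(ℝ, E) p),
    inner ℝ (differential F p v) (differential F p w) = bilinApply (g.inner p) v w

/-- Every closed smooth Riemannian surface has a smooth isometric immersion into Euclidean
four-space. -/
theorem result {M : Type*} [TopologicalSpace M] [T2Space M] [CompactSpace M]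
    [ChartedSpace (EuclideanSpace ℝ (Fin 2)) M]
    [IsManifold 𝓘(ℝ, EuclideanSpace ℝ (Fin 2)) ∞ M]
    (g : SmoothMetric (EuclideanSpace ℝ (Fin 2)) M) :
    ∃ F : M → EuclideanSpace ℝ (Fin 4), IsIsometricImmersion g F :=
  Vale.Agent.P205.final g

end Vale.Agent.Results.P205.A_full
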